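import Vale.Agent.Lib.P228.Tower

/-!
Hilbert-Smith: a faithful continuous action of the p-adic integers cannot contain a nonzero
element preserving every fibre of a fibration by topological lines.
-/

namespace Vale.Agent.Results.P228.LineFibres

open Vale.Agent.Lib.P228

/-- Let the additive group of p-adic integers act continuously and faithfully on a topological
space `E`, and let `π : E → B` be any map all of whose nonempty fibres are homeomorphic to the
real line.  Then the only `g` mapping every fibre of `π` into itself is `g = 0`. -/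
theorem result (p : ℕ) [Fact p.Prime] {E B : Type*} [TopologicalSpace E]
    [AddAction ℤ_[p] E] [ContinuousVAdd ℤ_[p] E] [FaithfulVAdd ℤ_[p] E]
    (π : E → B) (hfib : ∀ x : E, Nonempty ((π ⁻¹' {π x} : Set E) ≃ₜ ℝ))
    (g : ℤ_[p]) (hg : ∀ x : E, π (g +ᵥ x) = π x) : g = 0 := by
  have h1 : ∀ x : E, (g + g) +ᵥ x = x := by
    intro x
    obtain ⟨φ⟩ := hfib x
    apply add_self_vadd_eq (π ⁻¹' {π x}) φ g _ x rfl
    intro e he
    simp only [Set.mem_preimage, Set.mem_singleton_iff] at he ⊢
    rw [hg, he]
  have h2 : g + g = 0 := by
    apply FaithfulVAdd.eq_of_vadd_eq_vadd (P := E)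
    intro x
    rw [h1, zero_vadd]
  apply eq_zero_of_two_pow_nsmul g 1
  rw [pow_one, two_nsmul, h2]

end Vale.Agent.Results.P228.LineFibres
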