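import Vale.Agent.Lib.P228.Tower

/-!
Hilbert-Smith for triangular actions on `ℝ^n`, in every dimension.
-/

namespace Vale.Agent.Results.P228.TriangularEuclid

open Vale.Agent.Lib.P228

/-- For every `n` and every prime `p`, there is no faithful continuous action of the p-adic
integers on `ℝ^n` by triangular maps (the `i`-th coordinate of `g +ᵥ x` depends only on the
coordinates of `x` of index at most `i`). -/
theorem result (n : ℕ) (p : ℕ) [Fact p.Prime]
    [AddAction ℤ_[p] (Fin n → ℝ)] [ContinuousVAdd ℤ_[p] (Fin n → ℝ)]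
    (htri : ∀ (g : ℤ_[p]) (x y : Fin n → ℝ) (i : Fin n),
      (∀ j ≤ i, x j = y j) → (g +ᵥ x) i = (g +ᵥ y) i) :
    ¬ FaithfulVAdd ℤ_[p] (Fin n → ℝ) := by
  intro hfaith
  have h3 : (2 ^ n) • (1 : ℤ_[p]) = 0 := by
    apply hfaith.eq_of_vadd_eq_vadd
    intro x
    rw [zero_vadd]
    funext j
    exact two_pow_nsmul_mem_fixFirst htri n 1 x j j.2
  exact one_ne_zero (eq_zero_of_two_pow_nsmul _ n h3)

end Vale.Agent.Results.P228.TriangularEuclid
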