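import Vale.Agent.Lib.P228.Tower

/-!
Hilbert-Smith: dimension reduction for actions on `M × ℝ^k` that are triangular in the
`ℝ^k`-coordinates.
-/

namespace Vale.Agent.Results.P228.TriangularTower

open Vale.Agent.Lib.P228

/-- The p-adic form of the Hilbert-Smith conjecture in dimension `n`: for no prime `p` do the
p-adic integers act faithfully and continuously on a connected (Hausdorff, second countable)
topological `n`-manifold. -/
def HilbertSmith (n : ℕ) : Prop :=
  ∀ (p : ℕ) [Fact p.Prime] (M : Type) [TopologicalSpace M] [T2Space M]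
    [SecondCountableTopology M] [ConnectedSpace M] [ChartedSpace (EuclideanSpace ℝ (Fin n)) M]
    [AddAction ℤ_[p] M] [ContinuousVAdd ℤ_[p] M], ¬ FaithfulVAdd ℤ_[p] M

/-- If the Hilbert-Smith conjecture holds in dimension `n`, then for every connected
`n`-manifold `M` and every `k` there is no faithful continuous action of the p-adic integers on
`M × ℝ^k` which is triangular: the `M`-coordinate of `g +ᵥ z` depends only on the
`M`-coordinate of `z`, and the `i`-th real coordinate of `g +ᵥ z` depends only on the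
`M`-coordinate and on the real coordinates of index at most `i` of `z`. -/
theorem result (n : ℕ) (hHS : HilbertSmith n) (k : ℕ) (p : ℕ) [Fact p.Prime]
    (M : Type) [TopologicalSpace M] [T2Space M] [SecondCountableTopology M] [ConnectedSpace M]
    [ChartedSpace (EuclideanSpace ℝ (Fin n)) M]
    [AddAction ℤ_[p] (M × (Fin k → ℝ))] [ContinuousVAdd ℤ_[p] (M × (Fin k → ℝ))]
    (hbase : ∀ (g : ℤ_[p]) (z w : M × (Fin k → ℝ)), z.1 = w.1 → (g +ᵥ z).1 = (g +ᵥ w).1)
    (htri : ∀ (g : ℤ_[p]) (z w : M × (Fin k → ℝ)) (i : Fin k), z.1 = w.1 →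
      (∀ j ≤ i, z.2 j = w.2 j) → (g +ᵥ z).2 i = (g +ᵥ w).2 i) :
    ¬ FaithfulVAdd ℤ_[p] (M × (Fin k → ℝ)) := by
  intro hfaith
  -- the induced action on M
  letI act : AddAction ℤ_[p] M :=
    { vadd := fun g x => (g +ᵥ ((x, 0) : M × (Fin k → ℝ))).1
      zero_vadd := by
        intro x
        change ((0 : ℤ_[p]) +ᵥ ((x, 0) : M × (Fin k → ℝ))).1 = x
        rw [zero_vadd]
      add_vadd := by
        intro a b x
        change ((a + b) +ᵥ ((x, 0) : M × (Fin k → ℝ))).1 =
          (a +ᵥ (((b +ᵥ ((x, 0) : M × (Fin k → ℝ))).1, 0) : M × (Fin k → ℝ))).1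
        rw [add_vadd]
        exact hbase a _ _ rfl }
  have hdef : ∀ (g : ℤ_[p]) (x : M), g +ᵥ x = (g +ᵥ ((x, 0) : M × (Fin k → ℝ))).1 :=
    fun _ _ => rfl
  haveI : ContinuousVAdd ℤ_[p] M := by
    constructor
    have h1 : Continuous fun q : ℤ_[p] × M => (q.1 +ᵥ ((q.2, 0) : M × (Fin k → ℝ))).1 :=
      continuous_fst.comp
        (continuous_fst.vadd (continuous_snd.prodMk continuous_const))
    exact h1
  apply hHS p M
  constructor
  intro m₁ m₂ h
  -- g = m₁ - m₂ acts trivially on M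
  have hg : ∀ z : M × (Fin k → ℝ), ((m₁ - m₂) +ᵥ z).1 = z.1 := by
    intro z
    have h1 : ((m₁ - m₂) +ᵥ z).1 = (m₁ - m₂) +ᵥ z.1 := by
      rw [hdef]
      exact hbase _ _ _ rfl
    rw [h1]
    have h2 := h (-m₂ +ᵥ z.1)
    rw [vadd_neg_vadd, ← add_vadd, ← sub_eq_add_neg] at h2
    exact h2
  have h3 : (2 ^ k) • (m₁ - m₂) = 0 := by
    apply hfaith.eq_of_vadd_eq_vadd
    intro z
    rw [two_pow_nsmul_vadd_eq htri _ hg, zero_vadd]
  exact sub_eq_zero.mp (eq_zero_of_two_pow_nsmul _ k h3)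

end Vale.Agent.Results.P228.TriangularTower
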